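import Vale.Agent.Lib.P181.Range

open Vale.Agent.Lib.P181

/-- The Foulkes-Howe map `Sym^a (Sym^b ℂ^X) → Sym^b (Sym^a ℂ^X)` is injective if
`a * (a + 1) * 2 ^ a ≤ 8 * b`, and on the span of the monomials with at most `d` letters different
from `x₀` whenever `d` is admissible. -/
theorem Vale.Agent.Results.P181.DepthRange.result
    (X : Type) [Fintype X] [DecidableEq X] (x₀ : X) (a b : ℕ) (ha : 0 < a) :
    ∃ Ψ : (Sym (Sym X b) a →₀ ℂ) →ₗ[ℂ] (Sym (Sym X a) b →₀ ℂ), IsFoulkesHowe Ψ ∧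
      (a * (a + 1) * 2 ^ a ≤ 8 * b → Function.Injective Ψ) ∧
      ∀ d : ℕ, Admissible a b d → ∀ f : Sym (Sym X b) a →₀ ℂ,
        (∀ P ∈ f.support, a * b ≤ expo x₀ P + d) → Ψ f = 0 → f = 0 :=
  combined_range X x₀ a b ha
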