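import Vale.Agent.Results.P181.CubicBound
import Vale.Agent.Results.P181.DepthRange

open Vale.Agent.Lib.P181

/-- The Foulkes-Howe map `Sym^a (Sym^b ℂ^X) → Sym^b (Sym^a ℂ^X)`, for every finite set `X`, exists
and is injective when `a, b ≥ 1` and `a * ⌈a (a - 2) / 2⌉ ≤ b`. Moreover it is injective if
`a * (a + 1) * 2 ^ a ≤ 8 * b`, and on the span of the monomials with at most `d` letters different
from `x₀` whenever `d` is admissible. -/
theorem Vale.Agent.Results.P181.A0Conj.result :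
    (∀ (X : Type) [Fintype X] [DecidableEq X] (a b : ℕ), 0 < a → 0 < b →
      a * ((a * (a - 2) + 1) / 2) ≤ b →
      ∃ Ψ : (Sym (Sym X b) a →₀ ℂ) →ₗ[ℂ] (Sym (Sym X a) b →₀ ℂ), IsFoulkesHowe Ψ ∧
        Function.Injective Ψ) ∧
    (∀ (X : Type) [Fintype X] [DecidableEq X] (x₀ : X) (a b : ℕ), 0 < a →
      ∃ Ψ : (Sym (Sym X b) a →₀ ℂ) →ₗ[ℂ] (Sym (Sym X a) b →₀ ℂ), IsFoulkesHowe Ψ ∧
        (a * (a + 1) * 2 ^ a ≤ 8 * b → Function.Injective Ψ) ∧
        ∀ d : ℕ, Admissible a b d → ∀ f : Sym (Sym X b) a →₀ ℂ,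
          (∀ P ∈ f.support, a * b ≤ expo x₀ P + d) → Ψ f = 0 → f = 0) :=
  ⟨fun X _ _ a b ha hb0 hb => Vale.Agent.Results.P181.CubicBound.result X a b ha hb0 hb,
    fun X _ _ x₀ a b ha => Vale.Agent.Results.P181.DepthRange.result X x₀ a b ha⟩
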