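import Vale.Agent.Lib.P181.Explicit

open Vale.Agent.Lib.P181

/-- If `a ≥ 1` and `a * (a + 1) * 2 ^ a ≤ 8 * b`, then for every finite set `X` the Foulkes-Howe
map `Sym^a (Sym^b ℂ^X) → Sym^b (Sym^a ℂ^X)` exists and is injective. -/
theorem Vale.Agent.Results.P181.ExplicitBound.result
    (X : Type) [Fintype X] [DecidableEq X] (a b : ℕ) (ha : 0 < a)
    (hb : a * (a + 1) * 2 ^ a ≤ 8 * b) :
    ∃ Ψ : (Sym (Sym X b) a →₀ ℂ) →ₗ[ℂ] (Sym (Sym X a) b →₀ ℂ), IsFoulkesHowe Ψ ∧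
      Function.Injective Ψ :=
  explicit_injective X a b ha hb
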