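import Vale.Agent.Lib.P181.Depth

open Vale.Agent.Lib.P181

/-- For `a ≥ 1` and a finite set `X` with a point `x₀`, the Foulkes-Howe map
`Sym^a (Sym^b ℂ^X) → Sym^b (Sym^a ℂ^X)` exists and is injective on the span of the monomials in
which at most `max (b + 1) (2 * b + 2 - a)` of the `a * b` letters differ from `x₀`. -/
theorem Vale.Agent.Results.P181.LongFirstRow.result
    {X : Type} [Fintype X] [DecidableEq X] (x₀ : X) (a b : ℕ) (ha : 0 < a) :
    ∃ Ψ : (Sym (Sym X b) a →₀ ℂ) →ₗ[ℂ] (Sym (Sym X a) b →₀ ℂ), IsFoulkesHowe Ψ ∧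
      ∀ f : Sym (Sym X b) a →₀ ℂ,
        (∀ P ∈ f.support, a * b ≤ expo x₀ P + max (b + 1) (2 * b + 2 - a)) →
          Ψ f = 0 → f = 0 :=
  depth_injective x₀ a b ha
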